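import Vale.Agent.P328.Main

/-! # P328: the estimator -/

namespace Vale.Agent.P328

variable {m n : ℕ}

theorem rows_card (n s : ℕ) : (rows n s).card = (n + s - 1).choose s := by
  classical
  have h1 : (rows n s).card = ((Finset.univ : Finset (Fin n)).finsuppAntidiag s).card := by
    symm
    refine Finset.card_bij (fun f _ => (f : Fin n → ℕ)) ?_ ?_ ?_
    · intro f hf
      rw [mem_rows]
      exact (Finset.mem_finsuppAntidiag.1 hf).1
    · intro f _ g _ hfg
      exact DFunLike.coe_injective hfg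
    · intro x hx
      refine ⟨Finsupp.equivFunOnFinite.symm x, ?_, by simp⟩
      rw [Finset.mem_finsuppAntidiag]
      exact ⟨by simpa using mem_rows.1 hx, Finset.subset_univ _⟩
  rw [h1, Finset.card_finsuppAntidiag_nat_eq_choose]
  simp

theorem accurate_gen {β : Type*} [DecidableEq β] (F A : Finset β) (hAF : A ⊆ F) (Q : ℝ)
    (hQ : 1 ≤ Q) (hFQ : (F.card : ℝ) ≤ Q * (A.card : ℝ))
    (ε δ : ℝ) (hε : 0 < ε) (hδ : 0 < δ) (hδ1 : δ < 1) (T : ℕ)
    (hT : Q ^ 2 * Real.log (2 / δ) / (2 * ε ^ 2) ≤ (T : ℝ)) :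
    (1 - δ) * (F.card : ℝ) ^ T ≤
      (((Fintype.piFinset (fun _ : Fin T => F)).filter (fun ω =>
        (1 - ε) * (A.card : ℝ) ≤
          (F.card : ℝ) * ((Finset.univ.filter (fun i => ω i ∈ A)).card : ℝ) / (T : ℝ) ∧
        (F.card : ℝ) * ((Finset.univ.filter (fun i => ω i ∈ A)).card : ℝ) / (T : ℝ) ≤
          (1 + ε) * (A.card : ℝ))).card : ℝ) := by
  classical
  have hlog : 0 < Real.log (2 / δ) := Real.log_pos (by rw [lt_div_iff₀ hδ]; linarith)
  have hTpos : 0 < T := by
    have : (0 : ℝ) < Q ^ 2 * Real.log (2 / δ) / (2 * ε ^ 2) := by positivity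
    exact_mod_cast this.trans_le hT
  let B : Finset F := Finset.univ.filter (fun S => (S : β) ∈ A)
  have hB : B.card = A.card := by
    rw [← Finset.card_image_of_injective B Subtype.val_injective]
    congr 1
    ext S
    simp only [B, Finset.mem_image, Finset.mem_filter, Finset.mem_univ, true_and,
      Subtype.exists, exists_and_right, exists_eq_right]
    exact ⟨fun ⟨_, h⟩ => h, fun h => ⟨hAF h, h⟩⟩
  have hcF' : Fintype.card F = F.card := Fintype.card_coe F
  have hest := P317.estimator (Ω := F) B Q hQ (by rw [hcF', hB]; exact hFQ) ε δ hε hδ T hTpos hT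
  rw [hcF', hB] at hest
  set bad := Finset.univ.filter (fun ω : Fin T → F => ε * (A.card : ℝ) <
      |(F.card : ℝ) * ((Finset.univ.filter (fun i => ω i ∈ B)).card : ℝ) / (T : ℝ)
        - (A.card : ℝ)|) with hbad
  have hsplit : bad.card + badᶜ.card = F.card ^ T := by
    rw [Finset.card_add_card_compl, Fintype.card_fun, hcF', Fintype.card_fin]
  have hle : badᶜ.card ≤ ((Fintype.piFinset (fun _ : Fin T => F)).filter (fun ω =>
        (1 - ε) * (A.card : ℝ) ≤
          (F.card : ℝ) * ((Finset.univ.filter (fun i => ω i ∈ A)).card : ℝ) / (T : ℝ) ∧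
        (F.card : ℝ) * ((Finset.univ.filter (fun i => ω i ∈ A)).card : ℝ) / (T : ℝ) ≤
          (1 + ε) * (A.card : ℝ))).card := by
    refine Finset.card_le_card_of_injOn (fun φ i => (φ i : β)) ?_ ?_
    · intro φ hφ
      have hφ' : φ ∉ bad := by simpa using hφ
      simp only [hbad, Finset.mem_filter, Finset.mem_univ, true_and, not_lt] at hφ'
      have hh : (Finset.univ.filter (fun i => (φ i : β) ∈ A)).card =
          (Finset.univ.filter (fun i => φ i ∈ B)).card := by
        congr 1
        ext i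
        simp only [Finset.mem_filter, Finset.mem_univ, true_and, B]
      simp only [Finset.coe_filter, Set.mem_ofPred_eq, Fintype.mem_piFinset]
      refine ⟨fun i => (φ i).2, ?_⟩
      rw [hh]
      have := abs_le.1 hφ'
      constructor <;> linarith [this.1, this.2]
    · intro φ _ ψ _ h
      funext i
      exact Subtype.ext (congrFun h i)
  have hle' : (badᶜ.card : ℝ) ≤ _ := Nat.cast_le.2 hle
  refine le_trans ?_ hle'
  have h3 : (bad.card : ℝ) + (badᶜ.card : ℝ) = (F.card : ℝ) ^ T := by exact_mod_cast hsplit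
  nlinarith [hest]

end Vale.Agent.P328
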