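import Vale.Agent.P328.Defs

/-! # P328: tables and accepted samples -/

namespace Vale.Agent.P328

theorem fill_castSucc {m n : ℕ} (c : Fin n → ℕ) (ω : Fin m → Fin n → ℕ) (i : Fin m) :
    fill c ω i.castSucc = ω i := by
  unfold fill
  exact Fin.snoc_castSucc (α := fun _ => Fin n → ℕ) _ _ i

theorem fill_last {m n : ℕ} (c : Fin n → ℕ) (ω : Fin m → Fin n → ℕ) :
    fill c ω (Fin.last m) = fun j => c j - ∑ i, ω i j := by
  unfold fill
  exact Fin.snoc_last (α := fun _ => Fin n → ℕ) _ _

theorem fill_bijOn {m n : ℕ} (r : Fin (m + 1) → ℕ) (c : Fin n → ℕ) (h : ∑ i, r i = ∑ j, c j) :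
    Set.BijOn (fill c)
      {ω : Fin m → Fin n → ℕ | (∀ i, ω i ∈ rows n (r i.castSucc)) ∧ ∀ j, ∑ i, ω i j ≤ c j}
      (Tables r c) := by
  refine ⟨?_, ?_, ?_⟩
  · rintro ω ⟨h1, h2⟩
    have h1' : ∀ i, ∑ j, ω i j = r i.castSucc := fun i => mem_rows.1 (h1 i)
    refine ⟨?_, ?_⟩
    · intro i
      refine Fin.lastCases ?_ (fun i' => ?_) i
      · rw [fill_last]
        change ∑ j, (c j - ∑ i, ω i j) = r (Fin.last m)
        have e1 : ∑ j, (c j - ∑ i, ω i j) + ∑ j, ∑ i, ω i j = ∑ j, c j := by
          rw [← Finset.sum_add_distrib]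
          exact Finset.sum_congr rfl fun j _ => Nat.sub_add_cancel (h2 j)
        have e2 : ∑ j, ∑ i, ω i j = ∑ i : Fin m, r i.castSucc := by
          rw [Finset.sum_comm]
          exact Finset.sum_congr rfl fun i _ => h1' i
        have e3 := Fin.sum_univ_castSucc r
        omega
      · rw [fill_castSucc]
        exact h1' i'
    · intro j
      rw [Fin.sum_univ_castSucc]
      simp only [fill_castSucc, fill_last]
      have := h2 j
      omega
  · intro ω _ ω' _ he
    funext i
    have := congrFun he i.castSucc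
    rwa [fill_castSucc, fill_castSucc] at this
  · rintro X ⟨h1, h2⟩
    refine ⟨fun i => X i.castSucc, ⟨fun i => mem_rows.2 (h1 i.castSucc), fun j => ?_⟩, ?_⟩
    · have := h2 j
      rw [Fin.sum_univ_castSucc] at this
      change ∑ i : Fin m, X i.castSucc j ≤ c j
      omega
    · funext i
      refine Fin.lastCases ?_ (fun i' => ?_) i
      · rw [fill_last]
        funext j
        have := h2 j
        rw [Fin.sum_univ_castSucc] at this
        change c j - ∑ i : Fin m, X i.castSucc j = X (Fin.last m) j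
        omega
      · rw [fill_castSucc]

end Vale.Agent.P328
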