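import Mathlib

/-! # P328: Chebyshev on a product -/

namespace Vale.Agent.P328

theorem cheb_key {m : ℕ} {β : Type*} [DecidableEq β] (F : Fin m → Finset β) (f : Fin m → β → ℝ)
    (i k : Fin m) :
    ∑ ω ∈ Fintype.piFinset F, f i (ω i) * f k (ω k)
      = ∏ l, ∑ x ∈ F l, ((if l = i then f l x else 1) * (if l = k then f l x else 1)) := by
  rw [Finset.prod_univ_sum]
  refine Finset.sum_congr rfl fun ω _ => ?_
  rw [Finset.prod_mul_distrib]
  have h : ∀ j : Fin m, (∏ l, if l = j then f l (ω l) else 1) = f j (ω j) := by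
    intro j
    rw [Finset.prod_ite_eq' Finset.univ j (fun l => f l (ω l)), if_pos (Finset.mem_univ _)]
  rw [h i, h k]

theorem prod_cheb {m : ℕ} {β : Type*} [DecidableEq β] (F : Fin m → Finset β) (f : Fin m → β → ℝ)
    (v : Fin m → ℝ) (h0 : ∀ i, ∑ x ∈ F i, f i x = 0)
    (h2 : ∀ i, ∑ x ∈ F i, (f i x) ^ 2 ≤ ((F i).card : ℝ) * v i) (t : ℝ) (ht : 0 < t) :
    (((Fintype.piFinset F).filter (fun ω => t ≤ ∑ i, f i (ω i))).card : ℝ) * t ^ 2
      ≤ (∏ i, ((F i).card : ℝ)) * ∑ i, v i := by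
  have hoff : ∀ i k, i ≠ k → ∑ ω ∈ Fintype.piFinset F, f i (ω i) * f k (ω k) = 0 := by
    intro i k hik
    rw [cheb_key]
    apply Finset.prod_eq_zero (Finset.mem_univ i)
    simp only [if_true, if_neg hik, mul_one]
    exact h0 i
  have hdiag : ∀ i, ∑ ω ∈ Fintype.piFinset F, f i (ω i) * f i (ω i)
      ≤ (∏ l, ((F l).card : ℝ)) * v i := by
    intro i
    rw [cheb_key, ← Finset.mul_prod_erase Finset.univ _ (Finset.mem_univ i),
      ← Finset.mul_prod_erase Finset.univ (fun l => ((F l).card : ℝ)) (Finset.mem_univ i)]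
    have h1 : ∑ x ∈ F i, ((if i = i then f i x else 1) * (if i = i then f i x else 1))
        ≤ ((F i).card : ℝ) * v i := by
      refine le_trans (le_of_eq ?_) (h2 i)
      refine Finset.sum_congr rfl fun x _ => ?_
      rw [if_pos rfl]; ring
    have h3 : ∏ l ∈ Finset.univ.erase i,
        (∑ x ∈ F l, ((if l = i then f l x else 1) * (if l = i then f l x else 1)))
        = ∏ l ∈ Finset.univ.erase i, ((F l).card : ℝ) := by
      refine Finset.prod_congr rfl fun l hl => ?_
      have hli : l ≠ i := Finset.ne_of_mem_erase hl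
      simp [hli]
    rw [h3]
    have h4 : 0 ≤ ∏ l ∈ Finset.univ.erase i, ((F l).card : ℝ) :=
      Finset.prod_nonneg fun _ _ => Nat.cast_nonneg _
    calc (∑ x ∈ F i, ((if i = i then f i x else 1) * (if i = i then f i x else 1)))
          * ∏ l ∈ Finset.univ.erase i, ((F l).card : ℝ)
        ≤ (((F i).card : ℝ) * v i) * ∏ l ∈ Finset.univ.erase i, ((F l).card : ℝ) :=
          mul_le_mul_of_nonneg_right h1 h4
      _ = _ := by ring
  have hsq : ∑ ω ∈ Fintype.piFinset F, (∑ i, f i (ω i)) ^ 2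
      ≤ (∏ i, ((F i).card : ℝ)) * ∑ i, v i := by
    have e : ∑ ω ∈ Fintype.piFinset F, (∑ i, f i (ω i)) ^ 2
        = ∑ i, ∑ k, ∑ ω ∈ Fintype.piFinset F, f i (ω i) * f k (ω k) := by
      have e1 : ∀ ω : Fin m → β, (∑ i, f i (ω i)) ^ 2 = ∑ i, ∑ k, f i (ω i) * f k (ω k) := by
        intro ω
        rw [pow_two, Finset.sum_mul_sum]
      simp only [e1]
      rw [Finset.sum_comm]
      refine Finset.sum_congr rfl fun i _ => ?_
      rw [Finset.sum_comm]
    rw [e, Finset.mul_sum]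
    refine Finset.sum_le_sum fun i _ => ?_
    rw [Finset.sum_eq_single i (fun k _ hk => hoff i k (Ne.symm hk))
      (fun h => absurd (Finset.mem_univ i) h)]
    exact hdiag i
  refine le_trans ?_ hsq
  calc (((Fintype.piFinset F).filter (fun ω => t ≤ ∑ i, f i (ω i))).card : ℝ) * t ^ 2
      = ∑ _ω ∈ (Fintype.piFinset F).filter (fun ω => t ≤ ∑ i, f i (ω i)), t ^ 2 := by
        rw [Finset.sum_const, nsmul_eq_mul]
    _ ≤ ∑ ω ∈ (Fintype.piFinset F).filter (fun ω => t ≤ ∑ i, f i (ω i)),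
          (∑ i, f i (ω i)) ^ 2 := by
        refine Finset.sum_le_sum fun ω hω => ?_
        have := (Finset.mem_filter.1 hω).2
        exact pow_le_pow_left₀ ht.le this 2
    _ ≤ ∑ ω ∈ Fintype.piFinset F, (∑ i, f i (ω i)) ^ 2 :=
        Finset.sum_le_sum_of_subset_of_nonneg (Finset.filter_subset _ _)
          fun _ _ _ => sq_nonneg _

end Vale.Agent.P328
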