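import Mathlib

/-! # P328: contingency tables with one large row -/

namespace Vale.Agent.P328

variable {m n : ℕ}

/-- the contingency tables with row sums `r` and column sums `c` -/
def Tables (r : Fin m → ℕ) (c : Fin n → ℕ) : Set (Fin m → Fin n → ℕ) :=
  {X | (∀ i, ∑ j, X i j = r i) ∧ ∀ j, ∑ i, X i j = c j}

/-- the vectors of `n` nonnegative integers with sum `s` -/
def rows (n s : ℕ) : Finset (Fin n → ℕ) := Finset.univ.piAntidiag s

/-- the samples: one vector with the right sum for every row but the last one, all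
combinations -/
def samples (r : Fin (m + 1) → ℕ) (n : ℕ) : Finset (Fin m → Fin n → ℕ) :=
  Fintype.piFinset (fun i => rows n (r i.castSucc))

/-- the accepted samples: no column sum is exceeded -/
def accepted (r : Fin (m + 1) → ℕ) (c : Fin n → ℕ) : Finset (Fin m → Fin n → ℕ) :=
  (samples r n).filter (fun ω => ∀ j, ∑ i, ω i j ≤ c j)

/-- the table with first rows `ω`, whose last row is what is left of the column sums -/
def fill (c : Fin n → ℕ) (ω : Fin m → Fin n → ℕ) : Fin (m + 1) → Fin n → ℕ :=
  Fin.snoc (α := fun _ => Fin n → ℕ) ω (fun j => c j - ∑ i, ω i j)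

/-- every column sum is at least `R / n + sqrt (2 R + 2 Q / n)`, where `R` is the sum and `Q` the
sum of the squares of all the row sums except the last one -/
def LargeLastRow (r : Fin (m + 1) → ℕ) (c : Fin n → ℕ) : Prop :=
  ∀ j, (∑ i : Fin m, (r i.castSucc : ℝ)) / n +
    Real.sqrt (2 * (∑ i : Fin m, (r i.castSucc : ℝ)) +
      2 * (∑ i : Fin m, (r i.castSucc : ℝ) ^ 2) / n) ≤ (c j : ℝ)

/-- among all sequences of `T` samples, at least the fraction `1 - δ` satisfies
`(1 - ε) N ≤ |samples| * hits / T ≤ (1 + ε) N`, where `N` is the number of contingency tables and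
`hits` the number of accepted samples in the sequence -/
def Accurate (r : Fin (m + 1) → ℕ) (c : Fin n → ℕ) (T : ℕ) (ε δ : ℝ) : Prop :=
  (1 - δ) * ((samples r n).card : ℝ) ^ T ≤
    (((Fintype.piFinset (fun _ : Fin T => samples r n)).filter (fun ω =>
      (1 - ε) * ((Tables r c).ncard : ℝ) ≤ ((samples r n).card : ℝ) *
        ((Finset.univ.filter (fun i => ω i ∈ accepted r c)).card : ℝ) / (T : ℝ) ∧
      ((samples r n).card : ℝ) *
        ((Finset.univ.filter (fun i => ω i ∈ accepted r c)).card : ℝ) / (T : ℝ) ≤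
          (1 + ε) * ((Tables r c).ncard : ℝ))).card : ℝ)

theorem mem_rows {n s : ℕ} {x : Fin n → ℕ} : x ∈ rows n s ↔ ∑ j, x j = s := by
  simp [rows]

end Vale.Agent.P328
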