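import Vale.Agent.P328.Var
import Vale.Agent.P328.Cheb
import Vale.Agent.P328.Bij
import Vale.Agent.P317.Est

/-! # P328: one large row: assembly -/

namespace Vale.Agent.P328

variable {m n : ℕ}

theorem mem_accepted (r : Fin (m + 1) → ℕ) (c : Fin n → ℕ) (ω : Fin m → Fin n → ℕ) :
    ω ∈ accepted r c ↔
      ((∀ i, ω i ∈ rows n (r i.castSucc)) ∧ ∀ j, ∑ i, ω i j ≤ c j) := by
  simp [accepted, samples, Fintype.mem_piFinset]

theorem bijOn (r : Fin (m + 1) → ℕ) (c : Fin n → ℕ) (h : ∑ i, r i = ∑ j, c j) :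
    Set.BijOn (fill c) (accepted r c : Set (Fin m → Fin n → ℕ)) (Tables r c) := by
  have h1 := fill_bijOn r c h
  have h2 : (accepted r c : Set (Fin m → Fin n → ℕ)) =
      {ω : Fin m → Fin n → ℕ | (∀ i, ω i ∈ rows n (r i.castSucc)) ∧ ∀ j, ∑ i, ω i j ≤ c j} := by
    ext ω
    rw [Finset.mem_coe, mem_accepted]
    rfl
  rw [h2]
  exact h1

theorem card_tables (r : Fin (m + 1) → ℕ) (c : Fin n → ℕ) (h : ∑ i, r i = ∑ j, c j) :
    (Tables r c).ncard = (accepted r c).card := by
  rw [← (bijOn r c h).image_eq, (bijOn r c h).injOn.ncard_image,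
    Set.ncard_coe_finset]

/-- for every column the probability that it overflows is at most `1 / (2 n)` -/
theorem column_bound (hn : 0 < n) (r : Fin (m + 1) → ℕ) (c : Fin n → ℕ) (j : Fin n)
    (hc : (∑ i : Fin m, (r i.castSucc : ℝ)) / n +
      Real.sqrt (2 * (∑ i : Fin m, (r i.castSucc : ℝ)) +
        2 * (∑ i : Fin m, (r i.castSucc : ℝ) ^ 2) / n) ≤ (c j : ℝ)) :
    (((samples r n).filter (fun ω => c j < ∑ i, ω i j)).card : ℝ) * (2 * n) ≤
      ((samples r n).card : ℝ) := by
  classical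
  have hn' : (0 : ℝ) < n := by exact_mod_cast hn
  set R : ℝ := ∑ i : Fin m, (r i.castSucc : ℝ) with hR
  set R2 : ℝ := ∑ i : Fin m, (r i.castSucc : ℝ) ^ 2 with hR2
  have hR0 : 0 ≤ R := Finset.sum_nonneg fun i _ => Nat.cast_nonneg _
  have hR20 : 0 ≤ R2 := Finset.sum_nonneg fun i _ => by positivity
  have hs0 : 0 ≤ 2 * R + 2 * R2 / n := by positivity
  set t : ℝ := (c j : ℝ) + 1 - R / n with ht
  have hst : Real.sqrt (2 * R + 2 * R2 / n) + 1 ≤ t := by rw [ht]; linarith
  have htpos : 0 < t := by linarith [Real.sqrt_nonneg (2 * R + 2 * R2 / n)]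
  have ht2 : 2 * R + 2 * R2 / n < t ^ 2 := by
    have h1 := Real.sqrt_nonneg (2 * R + 2 * R2 / n)
    have h2 := Real.sq_sqrt hs0
    nlinarith
  have hch := prod_cheb (fun i : Fin m => rows n (r i.castSucc))
    (fun i x => (x j : ℝ) - (r i.castSucc : ℝ) / n)
    (fun i => (r i.castSucc : ℝ) / n + (r i.castSucc : ℝ) ^ 2 / n ^ 2)
    (fun i => row_mean n (r i.castSucc) hn j) (fun i => row_var n (r i.castSucc) hn j) t htpos
  have hprod : (∏ i : Fin m, ((rows n (r i.castSucc)).card : ℝ)) = ((samples r n).card : ℝ) := by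
    rw [samples, Fintype.card_piFinset]
    push_cast
    rfl
  have hsum : ∑ i : Fin m, ((r i.castSucc : ℝ) / n + (r i.castSucc : ℝ) ^ 2 / n ^ 2) =
      R / n + R2 / n ^ 2 := by
    rw [Finset.sum_add_distrib, ← Finset.sum_div, ← Finset.sum_div]
  rw [hprod, hsum] at hch
  have hfil : (samples r n).filter (fun ω => c j < ∑ i, ω i j) =
      (Fintype.piFinset (fun i : Fin m => rows n (r i.castSucc))).filter
        (fun ω => t ≤ ∑ i, ((ω i j : ℝ) - (r i.castSucc : ℝ) / n)) := by
    unfold samples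
    refine Finset.filter_congr fun ω _ => ?_
    rw [Finset.sum_sub_distrib, ← Finset.sum_div, ← hR, ht, sub_le_sub_iff_right,
      ← Nat.cast_sum]
    constructor
    · intro h
      exact_mod_cast h
    · intro h
      exact_mod_cast h
  rw [hfil]
  set b : ℝ := (((Fintype.piFinset (fun i : Fin m => rows n (r i.castSucc))).filter
        (fun ω => t ≤ ∑ i, ((ω i j : ℝ) - (r i.castSucc : ℝ) / n))).card : ℝ) with hb
  have hb0 : 0 ≤ b := Nat.cast_nonneg _
  have hS0 : (0 : ℝ) ≤ ((samples r n).card : ℝ) := Nat.cast_nonneg _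
  have h3 : R / n + R2 / n ^ 2 ≤ t ^ 2 / (2 * n) := by
    rw [le_div_iff₀ (by positivity)]
    have h4 : (R / n + R2 / n ^ 2) * (2 * n) = 2 * R + 2 * R2 / n := by
      field_simp
    rw [h4]
    exact ht2.le
  have h5 : b * t ^ 2 ≤ ((samples r n).card : ℝ) * (t ^ 2 / (2 * n)) :=
    hch.trans (mul_le_mul_of_nonneg_left h3 hS0)
  have h6 : b ≤ ((samples r n).card : ℝ) / (2 * n) := by
    have : b * t ^ 2 ≤ ((samples r n).card : ℝ) / (2 * n) * t ^ 2 := by
      calc b * t ^ 2 ≤ ((samples r n).card : ℝ) * (t ^ 2 / (2 * n)) := h5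
        _ = ((samples r n).card : ℝ) / (2 * n) * t ^ 2 := by ring
    exact le_of_mul_le_mul_right this (by positivity)
  rwa [le_div_iff₀ (by positivity)] at h6

theorem half (hn : 0 < n) (r : Fin (m + 1) → ℕ) (c : Fin n → ℕ)
    (hc : ∀ j, (∑ i : Fin m, (r i.castSucc : ℝ)) / n +
      Real.sqrt (2 * (∑ i : Fin m, (r i.castSucc : ℝ)) +
        2 * (∑ i : Fin m, (r i.castSucc : ℝ) ^ 2) / n) ≤ (c j : ℝ)) :
    (samples r n).card ≤ 2 * (accepted r c).card := by
  classical
  have hn' : (0 : ℝ) < n := by exact_mod_cast hn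
  have hsub : samples r n ⊆ accepted r c ∪
      (Finset.univ : Finset (Fin n)).biUnion
        (fun j => (samples r n).filter (fun ω => c j < ∑ i, ω i j)) := by
    intro ω hω
    by_cases h : ∀ j, ∑ i, ω i j ≤ c j
    · exact Finset.mem_union_left _ (Finset.mem_filter.2 ⟨hω, h⟩)
    · push Not at h
      obtain ⟨j, hj⟩ := h
      exact Finset.mem_union_right _ (Finset.mem_biUnion.2
        ⟨j, Finset.mem_univ _, Finset.mem_filter.2 ⟨hω, hj⟩⟩)
  have h1 := (Finset.card_le_card hsub).trans (Finset.card_union_le _ _)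
  have h2 : ((Finset.univ : Finset (Fin n)).biUnion
        (fun j => (samples r n).filter (fun ω => c j < ∑ i, ω i j))).card ≤
      ∑ j : Fin n, ((samples r n).filter (fun ω => c j < ∑ i, ω i j)).card :=
    Finset.card_biUnion_le
  have h3 : ((∑ j : Fin n, ((samples r n).filter (fun ω => c j < ∑ i, ω i j)).card : ℕ) : ℝ) *
      (2 * n) ≤ n * ((samples r n).card : ℝ) := by
    push_cast
    rw [Finset.sum_mul]
    calc ∑ j : Fin n, (((samples r n).filter (fun ω => c j < ∑ i, ω i j)).card : ℝ) * (2 * n)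
        ≤ ∑ _j : Fin n, ((samples r n).card : ℝ) :=
          Finset.sum_le_sum fun j _ => column_bound hn r c j (hc j)
      _ = n * ((samples r n).card : ℝ) := by
          rw [Finset.sum_const, Finset.card_univ, Fintype.card_fin, nsmul_eq_mul]
  have h4 : ((∑ j : Fin n, ((samples r n).filter (fun ω => c j < ∑ i, ω i j)).card : ℕ) : ℝ) * 2
      ≤ ((samples r n).card : ℝ) := by
    have h5 : (((∑ j : Fin n, ((samples r n).filter (fun ω => c j < ∑ i, ω i j)).card : ℕ) : ℝ)
        * 2) * n ≤ ((samples r n).card : ℝ) * n := by linarith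
    exact le_of_mul_le_mul_right h5 hn'
  have h6 : (∑ j : Fin n, ((samples r n).filter (fun ω => c j < ∑ i, ω i j)).card) * 2 ≤
      (samples r n).card := by exact_mod_cast h4
  omega

end Vale.Agent.P328
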