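import Vale.Agent.P328.Defs

/-! # P328: mean and variance of an entry of a uniform row -/

namespace Vale.Agent.P328

open Finset

/-- move one unit from `l` to `j` -/
def rvSh {n : ℕ} (j l : Fin n) (x : Fin n → ℕ) : Fin n → ℕ :=
  fun k => if k = l then x k - 1 else if k = j then x k + 1 else x k

theorem rvSh_sum {n s : ℕ} {j l : Fin n} (hjl : j ≠ l) {x : Fin n → ℕ} (hx : ∑ k, x k = s)
    (h1 : 1 ≤ x l) : ∑ k, rvSh j l x k = s := by
  have h : ∀ k, ((rvSh j l x k : ℕ) : ℤ) =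
      (x k : ℤ) + (if k = j then 1 else 0) - (if k = l then 1 else 0) := by
    intro k
    unfold rvSh
    by_cases hl : k = l
    · have hj : k ≠ j := fun h => hjl (h.symm.trans hl)
      rw [if_pos hl, if_neg hj, if_pos hl]
      rw [hl]
      omega
    · by_cases hj : k = j
      · rw [if_neg hl, if_pos hj, if_pos hj, if_neg hl]
        omega
      · rw [if_neg hl, if_neg hj, if_neg hj, if_neg hl]
        omega
  have h2 : ((∑ k, rvSh j l x k : ℕ) : ℤ) = s := by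
    rw [Nat.cast_sum, Finset.sum_congr rfl (fun k _ => h k), Finset.sum_sub_distrib,
      Finset.sum_add_distrib, Finset.sum_ite_eq', Finset.sum_ite_eq', ← hx]
    simp
  exact_mod_cast h2

theorem rvSh_inv {n : ℕ} {j l : Fin n} (hjl : j ≠ l) {x : Fin n → ℕ}
    (h1 : 1 ≤ x l) : rvSh l j (rvSh j l x) = x := by
  funext k
  unfold rvSh
  by_cases hl : k = l
  · have hj : k ≠ j := fun h => hjl (h.symm.trans hl)
    rw [if_neg hj, if_pos hl, if_pos hl, hl]
    omega
  · by_cases hj : k = j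
    · rw [if_pos hj, if_neg hl, if_pos hj]
      omega
    · rw [if_neg hj, if_neg hl, if_neg hl, if_neg hj]

theorem rv_shift {n s : ℕ} {j l : Fin n} (hjl : j ≠ l) :
    ∑ x ∈ rows n s, ((x j : ℝ) + 1) * (x j : ℝ) * (x l : ℝ) =
      ∑ x ∈ rows n s, (x j : ℝ) * ((x j : ℝ) - 1) * ((x l : ℝ) + 1) := by
  rw [← Finset.sum_filter_of_ne (s := rows n s) (p := fun x => 1 ≤ x l)
    (f := fun x => ((x j : ℝ) + 1) * (x j : ℝ) * (x l : ℝ)),
    ← Finset.sum_filter_of_ne (s := rows n s) (p := fun x => 1 ≤ x j)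
    (f := fun x => (x j : ℝ) * ((x j : ℝ) - 1) * ((x l : ℝ) + 1))]
  · refine Finset.sum_nbij' (rvSh j l) (rvSh l j) ?_ ?_ ?_ ?_ ?_
    · intro x hx
      rw [Finset.mem_filter, mem_rows] at hx
      rw [Finset.mem_filter, mem_rows]
      refine ⟨rvSh_sum hjl hx.1 hx.2, ?_⟩
      unfold rvSh
      rw [if_neg hjl, if_pos rfl]
      omega
    · intro x hx
      rw [Finset.mem_filter, mem_rows] at hx
      rw [Finset.mem_filter, mem_rows]
      refine ⟨rvSh_sum hjl.symm hx.1 hx.2, ?_⟩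
      unfold rvSh
      rw [if_neg hjl.symm, if_pos rfl]
      omega
    · intro x hx
      rw [Finset.mem_filter, mem_rows] at hx
      exact rvSh_inv hjl hx.2
    · intro x hx
      rw [Finset.mem_filter, mem_rows] at hx
      exact rvSh_inv hjl.symm hx.2
    · intro x hx
      rw [Finset.mem_filter, mem_rows] at hx
      have e1 : rvSh j l x j = x j + 1 := by
        unfold rvSh
        rw [if_neg hjl, if_pos rfl]
      have e2 : rvSh j l x l = x l - 1 := by
        unfold rvSh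
        rw [if_pos rfl]
      rw [e1, e2, Nat.cast_sub hx.2]
      push_cast
      ring
  · intro x _ hne
    by_contra hc
    have h0 : x j = 0 := by omega
    rw [h0] at hne
    simp at hne
  · intro x _ hne
    by_contra hc
    have h0 : x l = 0 := by omega
    rw [h0] at hne
    simp at hne

theorem rv_pair {n s : ℕ} {j l : Fin n} (hjl : j ≠ l) :
    ∑ x ∈ rows n s, (x j : ℝ) * ((x j : ℝ) - 1) = 2 * ∑ x ∈ rows n s, (x j : ℝ) * (x l : ℝ) := by
  have h := rv_shift (s := s) hjl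
  have h2 : ∑ x ∈ rows n s, (x j : ℝ) * ((x j : ℝ) - 1) -
      2 * ∑ x ∈ rows n s, (x j : ℝ) * (x l : ℝ) =
      ∑ x ∈ rows n s, (x j : ℝ) * ((x j : ℝ) - 1) * ((x l : ℝ) + 1) -
      ∑ x ∈ rows n s, ((x j : ℝ) + 1) * (x j : ℝ) * (x l : ℝ) := by
    rw [Finset.mul_sum, ← Finset.sum_sub_distrib, ← Finset.sum_sub_distrib]
    exact Finset.sum_congr rfl fun x _ => by ring
  linarith

theorem rv_swap {n s : ℕ} (j l : Fin n) :
    ∑ x ∈ rows n s, (x j : ℝ) = ∑ x ∈ rows n s, (x l : ℝ) := by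
  refine Finset.sum_nbij' (fun x => x ∘ Equiv.swap j l) (fun x => x ∘ Equiv.swap j l)
    ?_ ?_ ?_ ?_ ?_
  · intro x hx
    rw [mem_rows] at hx ⊢
    rw [← hx]
    exact Equiv.sum_comp (Equiv.swap j l) x
  · intro x hx
    rw [mem_rows] at hx ⊢
    rw [← hx]
    exact Equiv.sum_comp (Equiv.swap j l) x
  · intro x _
    funext k
    simp
  · intro x _
    funext k
    simp
  · intro x _
    simp

theorem rv_sum {n s : ℕ} (hn : 0 < n) (j : Fin n) :
    ∑ x ∈ rows n s, (x j : ℝ) = ((rows n s).card : ℝ) * ((s : ℝ) / n) := by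
  have hnR : (0 : ℝ) < n := by exact_mod_cast hn
  have h1 : ∑ l : Fin n, ∑ x ∈ rows n s, (x l : ℝ) = n * ∑ x ∈ rows n s, (x j : ℝ) := by
    rw [Finset.sum_congr rfl (fun l _ => rv_swap (s := s) l j), Finset.sum_const,
      Finset.card_univ, Fintype.card_fin, nsmul_eq_mul]
  have h2 : ∑ l : Fin n, ∑ x ∈ rows n s, (x l : ℝ) = ((rows n s).card : ℝ) * s := by
    rw [Finset.sum_comm]
    have h3 : ∀ x ∈ rows n s, ∑ l : Fin n, (x l : ℝ) = s := by
      intro x hx
      rw [mem_rows] at hx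
      rw [← hx]
      push_cast
      rfl
    rw [Finset.sum_congr rfl h3, Finset.sum_const, nsmul_eq_mul]
  have h4 : (n : ℝ) * ∑ x ∈ rows n s, (x j : ℝ) = ((rows n s).card : ℝ) * s := by
    rw [← h1, h2]
  field_simp
  linarith

/-- by symmetry -/
theorem row_mean (n s : ℕ) (hn : 0 < n) (j : Fin n) :
    ∑ x ∈ rows n s, ((x j : ℝ) - (s : ℝ) / n) = 0 := by
  rw [Finset.sum_sub_distrib, rv_sum hn j, Finset.sum_const, nsmul_eq_mul]
  ring

/-- conditionally on `x j + x l = t` (`l ≠ j`) the entry `x j` is uniform on `0..t`, so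
`E x_j (x_j - 1) = 2 E x_j x_l`; sum over `l` -/
theorem row_var (n s : ℕ) (hn : 0 < n) (j : Fin n) :
    ∑ x ∈ rows n s, ((x j : ℝ) - (s : ℝ) / n) ^ 2
      ≤ ((rows n s).card : ℝ) * ((s : ℝ) / n + (s : ℝ) ^ 2 / n ^ 2) := by
  have hnR : (0 : ℝ) < n := by exact_mod_cast hn
  have hM := rv_sum (s := s) hn j
  set N : ℝ := ((rows n s).card : ℝ) with hN
  have hN0 : 0 ≤ N := by positivity
  set A := ∑ x ∈ rows n s, (x j : ℝ) * ((x j : ℝ) - 1) with hA
  have h1 : ∑ l ∈ Finset.univ.erase j, A = ∑ l ∈ Finset.univ.erase j,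
      2 * ∑ x ∈ rows n s, (x j : ℝ) * (x l : ℝ) :=
    Finset.sum_congr rfl fun l hl => rv_pair (Finset.ne_of_mem_erase hl).symm
  rw [Finset.sum_const, Finset.card_erase_of_mem (Finset.mem_univ j), Finset.card_univ,
    Fintype.card_fin, nsmul_eq_mul, ← Finset.mul_sum, Finset.sum_comm] at h1
  have h2 : ∀ x ∈ rows n s, ∑ l ∈ Finset.univ.erase j, (x j : ℝ) * (x l : ℝ) =
      (x j : ℝ) * ((s : ℝ) - x j) := by
    intro x hx
    rw [mem_rows] at hx
    rw [← Finset.mul_sum]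
    congr 1
    have h3 : (x j : ℝ) + ∑ l ∈ Finset.univ.erase j, (x l : ℝ) = ∑ l, (x l : ℝ) :=
      Finset.add_sum_erase _ (fun l => (x l : ℝ)) (Finset.mem_univ j)
    have h4 : ∑ l, (x l : ℝ) = s := by
      rw [← hx]
      push_cast
      rfl
    linarith
  rw [Finset.sum_congr rfl h2] at h1
  have h5 : ∑ x ∈ rows n s, (x j : ℝ) * ((s : ℝ) - x j) =
      ((s : ℝ) - 1) * ∑ x ∈ rows n s, (x j : ℝ) - A := by
    rw [hA, Finset.mul_sum, ← Finset.sum_sub_distrib]
    exact Finset.sum_congr rfl fun x _ => by ring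
  have hn1 : ((n - 1 : ℕ) : ℝ) = (n : ℝ) - 1 := by
    rw [Nat.cast_sub hn]
    simp
  rw [h5, hM, hn1] at h1
  -- `(n + 1) A = 2 (s - 1) N s / n`
  have h6 : ((n : ℝ) + 1) * A = 2 * (((s : ℝ) - 1) * (N * ((s : ℝ) / n))) := by linarith
  have h7 : A ≤ 2 * N * ((s : ℝ) ^ 2 / n ^ 2) := by
    have h8 : (n : ℝ) * A ≤ 2 * N * ((s : ℝ) ^ 2 / n) := by
      have hA0 : 0 ≤ A := by
        rw [hA]
        refine Finset.sum_nonneg fun x _ => ?_
        rcases Nat.eq_zero_or_pos (x j) with h | h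
        · rw [h]; simp
        · have : (1 : ℝ) ≤ x j := by exact_mod_cast h
          exact mul_nonneg (by positivity) (by linarith)
      have h9 : 2 * (((s : ℝ) - 1) * (N * ((s : ℝ) / n))) ≤ 2 * N * ((s : ℝ) ^ 2 / n) := by
        have h10 : 0 ≤ N * ((s : ℝ) / n) := by positivity
        have e : 2 * N * ((s : ℝ) ^ 2 / n) = 2 * ((s : ℝ) * (N * ((s : ℝ) / n))) := by ring
        rw [e]
        nlinarith
      nlinarith
    have e : 2 * N * ((s : ℝ) ^ 2 / n ^ 2) = (2 * N * ((s : ℝ) ^ 2 / n)) / n := by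
      field_simp
    rw [e, le_div_iff₀ hnR]
    linarith
  have h11 : ∑ x ∈ rows n s, ((x j : ℝ) - (s : ℝ) / n) ^ 2 =
      A + (1 - 2 * ((s : ℝ) / n)) * ∑ x ∈ rows n s, (x j : ℝ) + N * ((s : ℝ) / n) ^ 2 := by
    rw [hA, Finset.mul_sum, hN, ← nsmul_eq_mul, ← Finset.sum_const, ← Finset.sum_add_distrib,
      ← Finset.sum_add_distrib]
    exact Finset.sum_congr rfl fun x _ => by ring
  rw [h11, hM]
  have e2 : (s : ℝ) ^ 2 / n ^ 2 = ((s : ℝ) / n) ^ 2 := by ring
  rw [e2] at h7 ⊢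
  nlinarith

end Vale.Agent.P328
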